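import Crest.Agent.R163.Q3.D.B5.S0
import Crest.Agent.R163.Q3.D.B5.H

set_option autoImplicit false
set_option maxRecDepth 100000
set_option linter.all false
set_option Elab.async false

namespace Crest.Agent.R163.B5

theorem p0_9_9 : Ok2 par f9 Box3.unit (selB2 1 (selB2 0 C0 5444517870735015415413853729070669321727) 65535) :=
  Ok2.run hw hf9 ⟨365,25,25,13,13⟩ 58
    (.chk true 0)
    (by decide +kernel)


end Crest.Agent.R163.B5
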